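import Mathlib

namespace Vale.Agent.Results.P061.ThinFour

open Finset Classical

lemma cut_complete (n : ℕ) (S : Finset (Fin n)) :
    ∑ u ∈ S, ∑ v ∈ Sᶜ, (if u = v then 0 else 1 : ℕ) = S.card * (n - S.card) := by
  have : ∀ u ∈ S, ∑ v ∈ Sᶜ, (if u = v then 0 else 1 : ℕ) = n - S.card := by
    intro u hu
    have h1 : ∀ v ∈ Sᶜ, (if u = v then 0 else 1 : ℕ) = 1 := by
      intro v hv
      have : u ≠ v := by
        rintro rfl
        exact (Finset.mem_compl.mp hv) hu
      simp [this]
    rw [Finset.sum_congr rfl h1]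
    simp [Finset.card_compl]
  rw [Finset.sum_congr rfl this]
  simp

lemma key (n : ℕ) (hn : 2 ≤ n) (T : SimpleGraph (Fin n)) (hT : T.IsTree) :
    ∃ S : Finset (Fin n), S.Nonempty ∧ S ≠ Finset.univ ∧
      ((S ×ˢ Sᶜ).filter (fun p => T.Adj p.1 p.2)).card = n - 1 := by
  obtain ⟨c⟩ := hT.colorable_two
  set S : Finset (Fin n) := Finset.univ.filter (fun v => c v = 0) with hS
  set t : Finset (Fin n) := Finset.univ.filter (fun v => c v = 1) with ht
  have hSc : Sᶜ = t := by
    ext v
    simp only [hS, ht, Finset.mem_compl, Finset.mem_filter, Finset.mem_univ, true_and]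
    generalize c v = x
    fin_cases x <;> simp
  have hb : T.IsBipartiteWith (S : Set (Fin n)) (t : Set (Fin n)) := by
    refine ⟨?_, ?_⟩
    · rw [Finset.disjoint_coe, ← hSc]
      exact disjoint_compl_right
    · intro v w hvw
      have hne := c.valid hvw
      simp only [hS, ht, Finset.coe_filter, Finset.mem_univ, true_and, Set.mem_ofPred_eq]
      generalize c v = x at hne
      generalize c w = y at hne
      fin_cases x <;> fin_cases y <;> simp_all
  have hE : T.edgeFinset.card = n - 1 := by
    have := hT.card_edgeFinset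
    simp at this
    omega
  have h1 : ∑ v ∈ S, T.degree v = n - 1 := by
    rw [← hE]; exact SimpleGraph.isBipartiteWith_sum_degrees_eq_card_edges hb
  have h2 : ∑ v ∈ t, T.degree v = n - 1 := by
    rw [← hE]; exact SimpleGraph.isBipartiteWith_sum_degrees_eq_card_edges' hb
  refine ⟨S, ?_, ?_, ?_⟩
  · by_contra h
    rw [Finset.not_nonempty_iff_eq_empty] at h
    rw [h] at h1
    simp at h1
    omega
  · intro h
    have : t = ∅ := by rw [← hSc, h]; simp
    rw [this] at h2
    simp at h2
    omega
  · rw [← h1, Finset.card_filter, Finset.sum_product]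
    apply Finset.sum_congr rfl
    intro u hu
    rw [← Finset.card_filter, ← SimpleGraph.card_neighborFinset_eq_degree]
    congr 1
    ext v
    simp only [Finset.mem_filter, SimpleGraph.mem_neighborFinset]
    constructor
    · exact fun h => h.2
    · intro h
      refine ⟨?_, h⟩
      rw [hSc]
      exact_mod_cast hb.mem_of_mem_adj (by exact_mod_cast hu) h

/-- If `C` is a constant such that every `k`-edge-connected loopless multigraph (given by a
symmetric multiplicity function `w`) has a spanning tree that is `C/k`-thin, then `C ≥ 4`. -/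
theorem result (C : ℝ)
    (hC : ∀ (k n : ℕ) (w : Fin n → Fin n → ℕ), 1 ≤ k → 2 ≤ n →
      (∀ u v, w u v = w v u) → (∀ v, w v v = 0) →
      (∀ S : Finset (Fin n), S.Nonempty → S ≠ Finset.univ → k ≤ ∑ u ∈ S, ∑ v ∈ Sᶜ, w u v) →
      ∃ T : SimpleGraph (Fin n), T.IsTree ∧ (∀ u v, T.Adj u v → 0 < w u v) ∧
        ∀ S : Finset (Fin n), S.Nonempty → S ≠ Finset.univ →
          (((S ×ˢ Sᶜ).filter (fun p => T.Adj p.1 p.2)).card : ℝ)
            ≤ C / k * ((∑ u ∈ S, ∑ v ∈ Sᶜ, w u v : ℕ) : ℝ)) :
    4 ≤ C := by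
  have main : ∀ n : ℕ, 2 ≤ n → 4 * ((n : ℝ) - 1) ^ 2 ≤ C * (n : ℝ) ^ 2 := by
    intro n hn
    obtain ⟨T, hT, -, hthin⟩ := hC (n - 1) n (fun u v => if u = v then 0 else 1) (by omega) hn
      (by intro u v; simp [eq_comm]) (by intro v; simp) (by
        intro S hS1 hS2
        rw [cut_complete]
        have h1 : 1 ≤ S.card := Finset.card_pos.mpr hS1
        have h2 : S.card < n := by
          have := (Finset.card_lt_iff_ne_univ S).mpr hS2
          simpa using this
        obtain ⟨a, ha⟩ : ∃ a, S.card = a + 1 := ⟨S.card - 1, by omega⟩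
        obtain ⟨b, hb⟩ : ∃ b, n = S.card + (b + 1) := ⟨n - S.card - 1, by omega⟩
        have e1 : n - S.card = b + 1 := by omega
        have e2 : n - 1 = a + b + 1 := by omega
        rw [e1, e2, ha]
        nlinarith [Nat.zero_le (a * b)])
    obtain ⟨S, hS1, hS2, hcard⟩ := key n hn T hT
    have h := hthin S hS1 hS2
    rw [hcard, cut_complete] at h
    have h2 : S.card ≤ n := by
      have := Finset.card_le_univ S
      simpa using this
    have hn1 : ((n - 1 : ℕ) : ℝ) = (n : ℝ) - 1 := by
      rw [Nat.cast_sub (by omega)]; simp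
    have hns : ((n - S.card : ℕ) : ℝ) = (n : ℝ) - S.card := by
      rw [Nat.cast_sub h2]
    rw [Nat.cast_mul, hn1, hns] at h
    have hpos : (0 : ℝ) < (n : ℝ) - 1 := by
      have : (2 : ℝ) ≤ n := by exact_mod_cast hn
      linarith
    set x : ℝ := (S.card : ℝ) with hx
    have hprod : x * ((n : ℝ) - x) ≤ (n : ℝ) ^ 2 / 4 := by nlinarith [sq_nonneg (2 * x - n)]
    have h' : ((n : ℝ) - 1) ^ 2 ≤ C * (x * ((n : ℝ) - x)) := by
      have := mul_le_mul_of_nonneg_right h hpos.le
      have e : C / ((n : ℝ) - 1) * (x * ((n : ℝ) - x)) * ((n : ℝ) - 1) = C * (x * ((n : ℝ) - x)) := by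
        field_simp
      rw [e] at this
      nlinarith
    have hCpos : 0 < C := by
      by_contra hneg
      push Not at hneg
      have hx0 : 0 ≤ x * ((n : ℝ) - x) := by
        apply mul_nonneg
        · exact Nat.cast_nonneg _
        · have : x ≤ n := by rw [hx]; exact_mod_cast h2
          linarith
      nlinarith [mul_nonneg (neg_nonneg.mpr hneg) hx0, pow_pos hpos 2]
    nlinarith [mul_le_mul_of_nonneg_left hprod hCpos.le]
  by_contra hcon
  push Not at hcon
  obtain ⟨n, hn⟩ := exists_nat_gt (8 / (4 - C) + 2)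
  have hd : 0 < 4 - C := by linarith
  have hq : 0 < 8 / (4 - C) := by positivity
  have hn2 : 2 ≤ n := by
    have : (2 : ℝ) < n := by linarith
    exact_mod_cast this.le
  have hm := main n hn2
  have h8 : 8 < (4 - C) * n := by
    have : 8 / (4 - C) < n := by linarith
    rw [div_lt_iff₀ hd] at this
    linarith
  have hnpos : (0 : ℝ) < n := by linarith
  nlinarith [mul_lt_mul_of_pos_right h8 hnpos]

end Vale.Agent.Results.P061.ThinFour
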